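import Vale.Agent.P032.S5.H80.Ends
import Vale.Agent.P032.S5.H360.Degree

/-!
# P032: the germ of a unit circle through a two-pair centre

`z` with `T z = {a, b, c, d}`, an exact `ab`-arc and an exact `cd`-arc on `S(z)`; `v` any point with
`|v - z| = 1`.  On one open half of `S(v)` at `z` the palettes are inside `{x, y}`, on the other
one inside `{x', y'}`, where `{x, x'} = {a, b}`, `{y, y'} = {c, d}` (`Irr.halves`).
-/

open Set Filter Topology Metric

noncomputable section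

namespace Vale.Agent.P032.Six

variable {k : ℕ} {U : Fin k → Set ℂ} {T : ℂ → Set (Fin k)}

/-- **antipodal disc**: with `a` inside and `b` outside `S(z)` at the arc point `p`, near `z` the
colour `a` is outside and `b` is inside the disc about the antipode of `p` -/
theorem Irr.anti_disc (h : Irr U T) {z p : ℂ} {a b : Fin k} (hp : Arc T z p {a, b})
    (hs : Sd U z p a b) :
    ∀ᶠ x in 𝓝 z, (a ∈ T x → 1 ≤ dist x (2 * z - p)) ∧ (b ∈ T x → dist x (2 * z - p) ≤ 1) := by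
  have ht : Tendsto (fun x => p + (x - z)) (𝓝 z) (𝓝 p) := by
    have : Continuous fun x : ℂ => p + (x - z) := by fun_prop
    have h2 := this.tendsto z
    simpa using h2
  filter_upwards [ht.eventually (h.nhd p), ht.eventually hs] with x h1 h2
  have hqx : dist (p + (x - z)) x = 1 := by
    have e : p + (x - z) - x = p - z := by ring
    rw [dist_eq_norm, e, ← dist_eq_norm]
    exact hp.1
  have hd : dist x (2 * z - p) = dist (p + (x - z)) z := by
    rw [dist_eq_norm, dist_eq_norm]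
    congr 1
    ring
  rw [hp.mem] at h1
  constructor
  · intro ha
    have hb : b ∈ T (p + (x - z)) := by
      by_contra hcon
      have h3 : T (p + (x - z)) ⊆ {a} := by
        intro m hm
        rcases h1 hm with h4 | h4
        · exact h4
        · exact absurd (h4 ▸ hm) hcon
      exact h.mx.notMem' (h.mem_of_single h3) hqx (h.sub x ha)
    rw [hd]
    by_contra hcon
    exact h2.2 (not_le.1 hcon) (h.sub _ hb)
  · intro hb
    have ha : a ∈ T (p + (x - z)) := by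
      by_contra hcon
      have h3 : T (p + (x - z)) ⊆ {b} := by
        intro m hm
        rcases h1 hm with h4 | h4
        · exact absurd (h4 ▸ hm) hcon
        · exact h4
      exact h.mx.notMem' (h.mem_of_single h3) hqx (h.sub x hb)
    rw [hd]
    by_contra hcon
    exact h2.1 (not_le.1 hcon) (h.sub _ ha)

/-- one pair: one half of `S(v)` at `z` has no `x'`, the other one has no `x` -/
theorem Irr.halves_one (h : Irr U T) {z v : ℂ} {a b c d : Fin k} (hz : DPt T z a b c d)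
    (hv : dist v z = 1) : ∃ x x', (x = a ∧ x' = b ∨ x = b ∧ x' = a) ∧
      (∀ᶠ t : ℝ in 𝓝[>] 0, x' ∉ T (v + (z - v) * cis t)) ∧
      ∀ᶠ t : ℝ in 𝓝[>] 0, x ∉ T (v + (z - v) * cis (-t)) := by
  obtain ⟨p, hp⟩ := hz.arc1
  obtain ⟨q, hq, hqv, hqv2⟩ := hp.exists_off_line (y := v)
  have hzg : dist z (2 * z - q) = 1 := by
    have e : z - (2 * z - q) = q - z := by ring
    rw [dist_eq_norm, e, ← dist_eq_norm]
    exact hq.1
  have hcr : cr (z - v) (z - (2 * z - q)) ≠ 0 := by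
    refine cr_ne (by rw [dist_comm]; exact hv) hzg ?_ ?_
    · intro h1
      exact hqv2 (by linear_combination h1)
    · intro h1
      exact hqv (by linear_combination -h1)
  have t1 : Tendsto (fun t : ℝ => v + (z - v) * cis t) (𝓝[>] 0) (𝓝 z) := by
    have := tendsto_arc v z 1
    simpa using this
  have t2 : Tendsto (fun t : ℝ => v + (z - v) * cis (-t)) (𝓝[>] 0) (𝓝 z) := by
    have := tendsto_arc v z (-1)
    simpa using this
  -- positions of the two halves
  have key : (∀ᶠ t : ℝ in 𝓝[>] 0, 1 < dist (v + (z - v) * cis t) (2 * z - q)) ∧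
      (∀ᶠ t : ℝ in 𝓝[>] 0, dist (v + (z - v) * cis (-t)) (2 * z - q) < 1) ∨
      (∀ᶠ t : ℝ in 𝓝[>] 0, dist (v + (z - v) * cis t) (2 * z - q) < 1) ∧
      ∀ᶠ t : ℝ in 𝓝[>] 0, 1 < dist (v + (z - v) * cis (-t)) (2 * z - q) := by
    rcases lt_or_gt_of_ne hcr with h1 | h1
    · right
      have e1 := arc_in (C := v) (P := z) (g := 2 * z - q) hzg (τ := 1) (by linarith)
      have e2 := arc_out (C := v) (P := z) (g := 2 * z - q) hzg (τ := -1) (by linarith)
      exact ⟨by simpa using e1, by simpa using e2⟩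
    · left
      have e1 := arc_out (C := v) (P := z) (g := 2 * z - q) hzg (τ := 1) (by linarith)
      have e2 := arc_in (C := v) (P := z) (g := 2 * z - q) hzg (τ := -1) (by linarith)
      exact ⟨by simpa using e1, by simpa using e2⟩
  -- the colour inside at `q`
  have main : ∀ i j : Fin k, ({a, b} : Set (Fin k)) = {i, j} → Sd U z q i j →
      ((∀ᶠ t : ℝ in 𝓝[>] 0, 1 < dist (v + (z - v) * cis t) (2 * z - q)) ∧
      (∀ᶠ t : ℝ in 𝓝[>] 0, dist (v + (z - v) * cis (-t)) (2 * z - q) < 1) →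
        (∀ᶠ t : ℝ in 𝓝[>] 0, j ∉ T (v + (z - v) * cis t)) ∧
        ∀ᶠ t : ℝ in 𝓝[>] 0, i ∉ T (v + (z - v) * cis (-t))) ∧
      ((∀ᶠ t : ℝ in 𝓝[>] 0, dist (v + (z - v) * cis t) (2 * z - q) < 1) ∧
      (∀ᶠ t : ℝ in 𝓝[>] 0, 1 < dist (v + (z - v) * cis (-t)) (2 * z - q)) →
        (∀ᶠ t : ℝ in 𝓝[>] 0, i ∉ T (v + (z - v) * cis t)) ∧
        ∀ᶠ t : ℝ in 𝓝[>] 0, j ∉ T (v + (z - v) * cis (-t))) := by
    intro i j hij hs
    have hq' : Arc T z q {i, j} := by rw [← hij]; exact hq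
    have hd := h.anti_disc hq' hs
    refine ⟨fun ⟨h1, h2⟩ => ⟨?_, ?_⟩, fun ⟨h1, h2⟩ => ⟨?_, ?_⟩⟩
    · filter_upwards [t1.eventually hd, h1] with t h3 h4 h5
      exact absurd (h3.2 h5) (not_le.2 h4)
    · filter_upwards [t2.eventually hd, h2] with t h3 h4 h5
      exact absurd (h3.1 h5) (not_le.2 h4)
    · filter_upwards [t1.eventually hd, h1] with t h3 h4 h5
      exact absurd (h3.1 h5) (not_le.2 h4)
    · filter_upwards [t2.eventually hd, h2] with t h3 h4 h5
      exact absurd (h3.2 h5) (not_le.2 h4)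
  rcases h.sides hz hq.1 with hs | hs
  · obtain ⟨m1, m2⟩ := main a b rfl hs
    rcases key with hk | hk
    · exact ⟨a, b, Or.inl ⟨rfl, rfl⟩, (m1 hk).1, (m1 hk).2⟩
    · exact ⟨b, a, Or.inr ⟨rfl, rfl⟩, (m2 hk).1, (m2 hk).2⟩
  · obtain ⟨m1, m2⟩ := main b a (Set.pair_comm a b) hs
    rcases key with hk | hk
    · exact ⟨b, a, Or.inr ⟨rfl, rfl⟩, (m1 hk).1, (m1 hk).2⟩
    · exact ⟨a, b, Or.inl ⟨rfl, rfl⟩, (m2 hk).1, (m2 hk).2⟩

/-- **Branch lemma.** -/
theorem Irr.halves (h : Irr U T) {z v : ℂ} {a b c d : Fin k} (hz : DPt T z a b c d)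
    (hv : dist v z = 1) : ∃ x x' y y', (x = a ∧ x' = b ∨ x = b ∧ x' = a) ∧
      (y = c ∧ y' = d ∨ y = d ∧ y' = c) ∧
      (∀ᶠ t : ℝ in 𝓝[>] 0, T (v + (z - v) * cis t) ⊆ {x, y}) ∧
      ∀ᶠ t : ℝ in 𝓝[>] 0, T (v + (z - v) * cis (-t)) ⊆ {x', y'} := by
  obtain ⟨x, x', hx, h1, h2⟩ := h.halves_one hz hv
  obtain ⟨y, y', hy, h3, h4⟩ := h.halves_one hz.swap hv
  have t1 : Tendsto (fun t : ℝ => v + (z - v) * cis t) (𝓝[>] 0) (𝓝 z) := by
    have := tendsto_arc v z 1
    simpa using this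
  have t2 : Tendsto (fun t : ℝ => v + (z - v) * cis (-t)) (𝓝[>] 0) (𝓝 z) := by
    have := tendsto_arc v z (-1)
    simpa using this
  refine ⟨x, x', y, y', hx, hy, ?_, ?_⟩
  · filter_upwards [h1, h3, t1.eventually (h.nhd z)] with t e1 e3 e5 m hm
    have := e5 hm
    rw [hz.pal] at this
    rcases hx with ⟨rfl, rfl⟩ | ⟨rfl, rfl⟩ <;> rcases hy with ⟨rfl, rfl⟩ | ⟨rfl, rfl⟩ <;>
      rcases this with rfl | rfl | rfl | this <;>
      first
        | exact absurd hm e1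
        | exact absurd hm e3
        | exact Or.inl rfl
        | exact Or.inr rfl
        | (rw [mem_singleton_iff] at this
           subst this
           first
            | exact absurd hm e3
            | exact Or.inr rfl)
  · filter_upwards [h2, h4, t2.eventually (h.nhd z)] with t e1 e3 e5 m hm
    have := e5 hm
    rw [hz.pal] at this
    rcases hx with ⟨rfl, rfl⟩ | ⟨rfl, rfl⟩ <;> rcases hy with ⟨rfl, rfl⟩ | ⟨rfl, rfl⟩ <;>
      rcases this with rfl | rfl | rfl | this <;>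
      first
        | exact absurd hm e1
        | exact absurd hm e3
        | exact Or.inl rfl
        | exact Or.inr rfl
        | (rw [mem_singleton_iff] at this
           subst this
           first
            | exact absurd hm e3
            | exact Or.inr rfl)

/-- two-pair centres are isolated: near `z` only `z` has both colours of the pair -/
theorem Irr.dpt_iso (h : Irr U T) {z : ℂ} {a b c d : Fin k} (hz : DPt T z a b c d) :
    ∀ᶠ w in 𝓝 z, a ∈ T w → b ∈ T w → w = z := by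
  obtain ⟨p, hp⟩ := hz.arc1
  obtain ⟨q, hq, hqp, hqp2⟩ := hp.exists_off_line (y := p)
  have on : ∀ r, Arc T z r {a, b} → ∀ᶠ w in 𝓝 z, a ∈ T w → b ∈ T w → dist w (2 * z - r) = 1 := by
    intro r hr
    rcases h.sides hz hr.1 with hs | hs
    · filter_upwards [h.anti_disc hr hs] with w hw ha hb
      exact le_antisymm (hw.2 hb) (hw.1 ha)
    · have hr' : Arc T z r {b, a} := by rw [Set.pair_comm]; exact hr
      filter_upwards [h.anti_disc hr' hs] with w hw ha hb
      exact le_antisymm (hw.2 ha) (hw.1 hb)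
  have dz : ∀ r, Arc T z r {a, b} → dist z (2 * z - r) = 1 := by
    intro r hr
    have e : z - (2 * z - r) = r - z := by ring
    rw [dist_eq_norm, e, ← dist_eq_norm]
    exact hr.1
  -- the other common point
  set s : ℂ := (2 * z - p) + (2 * z - q) - z with hsdef
  have hsz : s ≠ z := by
    intro h1
    exact hqp2 (by rw [hsdef] at h1; linear_combination -h1)
  have hs1 : dist s (2 * z - p) = 1 := by
    have e : s - (2 * z - p) = z - q := by rw [hsdef]; ring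
    rw [dist_eq_norm, e, ← dist_eq_norm, dist_comm]
    exact hq.1
  have hs2 : dist s (2 * z - q) = 1 := by
    have e : s - (2 * z - q) = z - p := by rw [hsdef]; ring
    rw [dist_eq_norm, e, ← dist_eq_norm, dist_comm]
    exact hp.1
  filter_upwards [on p hp, on q hq, isOpen_compl_singleton.mem_nhds (show z ∈ ({s}ᶜ : Set ℂ) from
    fun h1 => hsz h1.symm)] with w h1 h2 h3 ha hb
  rcases circle_two (z := 2 * z - p) (w := 2 * z - q) (V := z) (Q := s) (x := w) (dz p hp) hs1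
    (h1 ha hb) (dz q hq) hs2 (h2 ha hb) (by
      intro h4
      exact hqp (by linear_combination h4)) (Ne.symm hsz) with h4 | h4
  · exact h4
  · exact absurd h4 h3

/-- near `v` on `S(v)`: a half with palettes inside `{x, y}`, `x ∈ Pal v`, has `y` everywhere -/
theorem Irr.half_one (h : Irr U T) {z v : ℂ} {x y : Fin k} {o : ℝ} (hv : dist v z = 1)
    (hx : x ∈ Pal U v) (hh : ∀ᶠ t : ℝ in 𝓝[>] 0, T (v + (z - v) * cis (o * t)) ⊆ {x, y}) :
    ∀ᶠ t : ℝ in 𝓝[>] 0, y ∈ T (v + (z - v) * cis (o * t)) := by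
  filter_upwards [hh] with t ht
  by_contra hcon
  have h3 : T (v + (z - v) * cis (o * t)) ⊆ {x} := by
    intro m hm
    rcases ht hm with h4 | h4
    · exact h4
    · exact absurd (h4 ▸ hm) hcon
  exact h.mx.notMem' (h.mem_of_single h3) (dist_arc (by rw [dist_comm]; exact hv) _) hx

theorem Irr.half_two (h : Irr U T) {z v : ℂ} {x y : Fin k} {o : ℝ} (hv : dist v z = 1)
    (hx : x ∈ Pal U v) (hy : y ∈ Pal U v)
    (hh : ∀ᶠ t : ℝ in 𝓝[>] 0, T (v + (z - v) * cis (o * t)) ⊆ {x, y}) :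
    ∀ᶠ t : ℝ in 𝓝[>] 0, T (v + (z - v) * cis (o * t)) = {x, y} := by
  have hh' : ∀ᶠ t : ℝ in 𝓝[>] 0, T (v + (z - v) * cis (o * t)) ⊆ {y, x} := by
    filter_upwards [hh] with t ht
    rw [Set.pair_comm]; exact ht
  filter_upwards [hh, h.half_one hv hx hh, h.half_one hv hy hh'] with t h1 h2 h3
  refine Subset.antisymm h1 ?_
  rintro m (rfl | rfl)
  · exact h3
  · exact h2

/-- both halves at `z` of a unit circle, with an orientation `o` chosen such that the colour `c`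
of the second pair is on the half `-o` -/
theorem Irr.halves_c (h : Irr U T) {z v : ℂ} {a b c d : Fin k} (hz : DPt T z a b c d)
    (hv : dist v z = 1) : ∃ x x', ∃ o : ℝ, (x = a ∧ x' = b ∨ x = b ∧ x' = a) ∧
      (o = 1 ∨ o = -1) ∧
      (∀ᶠ t : ℝ in 𝓝[>] 0, T (v + (z - v) * cis (-o * t)) ⊆ {x, c}) ∧
      ∀ᶠ t : ℝ in 𝓝[>] 0, T (v + (z - v) * cis (o * t)) ⊆ {x', d} := by
  obtain ⟨x, x', y, y', hx, hy, h1, h2⟩ := h.halves hz hv
  rcases hy with ⟨rfl, rfl⟩ | ⟨rfl, rfl⟩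
  · refine ⟨x, x', -1, hx, Or.inr rfl, ?_, ?_⟩
    · simpa using h1
    · simpa using h2
  · refine ⟨x', x, 1, ?_, Or.inl rfl, ?_, ?_⟩
    · rcases hx with ⟨rfl, rfl⟩ | ⟨rfl, rfl⟩
      · exact Or.inr ⟨rfl, rfl⟩
      · exact Or.inl ⟨rfl, rfl⟩
    · simpa using h2
    · simpa using h1

/-- **germ at a centre, three common colours** (`beta`): `a, b, c ∈ Pal v`.  One half of `S(v)` at
`z` is an exact arc `{x, c}`, `x ∈ {a, b}`; the other half has the colour `d` everywhere and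
palettes inside `{x', d}` -/
theorem Irr.germ_three (h : Irr U T) {z v : ℂ} {a b c d : Fin k} (hz : DPt T z a b c d)
    (hv : dist v z = 1) (ha : a ∈ Pal U v) (hb : b ∈ Pal U v) (hc : c ∈ Pal U v) :
    ∃ x x', ∃ o : ℝ, (x = a ∧ x' = b ∨ x = b ∧ x' = a) ∧ (o = 1 ∨ o = -1) ∧
      (∀ᶠ t : ℝ in 𝓝[>] 0, T (v + (z - v) * cis (-o * t)) = {x, c}) ∧
      ∀ᶠ t : ℝ in 𝓝[>] 0, d ∈ T (v + (z - v) * cis (o * t)) ∧
        T (v + (z - v) * cis (o * t)) ⊆ {x', d} := by
  obtain ⟨x, x', o, hx, ho, h1, h2⟩ := h.halves_c hz hv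
  have hxv : x ∈ Pal U v := by
    rcases hx with ⟨rfl, -⟩ | ⟨rfl, -⟩
    · exact ha
    · exact hb
  have hxv' : x' ∈ Pal U v := by
    rcases hx with ⟨-, rfl⟩ | ⟨-, rfl⟩
    · exact hb
    · exact ha
  exact ⟨x, x', o, hx, ho, h.half_two hv hxv hc h1, (h.half_one hv hxv' h2).and h2⟩

/-- **germ at a centre, four common colours** (`EQ`): both halves are exact, crossed pairs -/
theorem Irr.germ_four (h : Irr U T) {z v : ℂ} {a b c d : Fin k} (hz : DPt T z a b c d)
    (hv : dist v z = 1) (ha : a ∈ Pal U v) (hb : b ∈ Pal U v) (hc : c ∈ Pal U v)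
    (hd : d ∈ Pal U v) :
    ∃ x x', ∃ o : ℝ, (x = a ∧ x' = b ∨ x = b ∧ x' = a) ∧ (o = 1 ∨ o = -1) ∧
      (∀ᶠ t : ℝ in 𝓝[>] 0, T (v + (z - v) * cis (-o * t)) = {x, c}) ∧
      ∀ᶠ t : ℝ in 𝓝[>] 0, T (v + (z - v) * cis (o * t)) = {x', d} := by
  obtain ⟨x, x', o, hx, ho, h1, h2⟩ := h.halves_c hz hv
  have hxv : x ∈ Pal U v := by
    rcases hx with ⟨rfl, -⟩ | ⟨rfl, -⟩
    · exact ha
    · exact hb
  have hxv' : x' ∈ Pal U v := by
    rcases hx with ⟨-, rfl⟩ | ⟨-, rfl⟩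
    · exact hb
    · exact ha
  exact ⟨x, x', o, hx, ho, h.half_two hv hxv hc h1, h.half_two hv hxv' hd h2⟩

/-- **germ at a centre, one pair in common**: `a, b ∈ Pal v`.  `S(v)` has `c` on one half and `d`
on the other half -/
theorem Irr.germ_pair (h : Irr U T) {z v : ℂ} {a b c d : Fin k} (hz : DPt T z a b c d)
    (hv : dist v z = 1) (ha : a ∈ Pal U v) (hb : b ∈ Pal U v) :
    ∃ x x', ∃ o : ℝ, (x = a ∧ x' = b ∨ x = b ∧ x' = a) ∧ (o = 1 ∨ o = -1) ∧
      (∀ᶠ t : ℝ in 𝓝[>] 0, c ∈ T (v + (z - v) * cis (-o * t)) ∧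
        T (v + (z - v) * cis (-o * t)) ⊆ {x, c}) ∧
      ∀ᶠ t : ℝ in 𝓝[>] 0, d ∈ T (v + (z - v) * cis (o * t)) ∧
        T (v + (z - v) * cis (o * t)) ⊆ {x', d} := by
  obtain ⟨x, x', o, hx, ho, h1, h2⟩ := h.halves_c hz hv
  have hxv : x ∈ Pal U v := by
    rcases hx with ⟨rfl, -⟩ | ⟨rfl, -⟩
    · exact ha
    · exact hb
  have hxv' : x' ∈ Pal U v := by
    rcases hx with ⟨-, rfl⟩ | ⟨-, rfl⟩
    · exact hb
    · exact ha
  exact ⟨x, x', o, hx, ho, (h.half_one hv hxv h1).and h1, (h.half_one hv hxv' h2).and h2⟩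

/-- **germ at a centre, two crossed colours**: `a, c ∈ Pal v`.  Either an exact `{a, c}` half, the
other half inside `{b, d}`; or `d` on one half and `b` on the other one -/
theorem Irr.germ_cross (h : Irr U T) {z v : ℂ} {a b c d : Fin k} (hz : DPt T z a b c d)
    (hv : dist v z = 1) (ha : a ∈ Pal U v) (hc : c ∈ Pal U v) :
    ∃ o : ℝ, (o = 1 ∨ o = -1) ∧
      (((∀ᶠ t : ℝ in 𝓝[>] 0, T (v + (z - v) * cis (-o * t)) = {a, c}) ∧
        ∀ᶠ t : ℝ in 𝓝[>] 0, T (v + (z - v) * cis (o * t)) ⊆ {b, d}) ∨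
      ((∀ᶠ t : ℝ in 𝓝[>] 0, b ∈ T (v + (z - v) * cis (-o * t)) ∧
        T (v + (z - v) * cis (-o * t)) ⊆ {b, c}) ∧
        ∀ᶠ t : ℝ in 𝓝[>] 0, d ∈ T (v + (z - v) * cis (o * t)) ∧
        T (v + (z - v) * cis (o * t)) ⊆ {a, d})) := by
  obtain ⟨x, x', o, hx, ho, h1, h2⟩ := h.halves_c hz hv
  refine ⟨o, ho, ?_⟩
  rcases hx with ⟨rfl, rfl⟩ | ⟨rfl, rfl⟩
  · exact Or.inl ⟨h.half_two hv ha hc h1, h2⟩
  · refine Or.inr ⟨?_, (h.half_one hv ha h2).and h2⟩
    have h1' : ∀ᶠ t : ℝ in 𝓝[>] 0, T (v + (z - v) * cis (-o * t)) ⊆ {c, x} := by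
      filter_upwards [h1] with t ht
      rw [Set.pair_comm]; exact ht
    exact (h.half_one hv hc h1').and h1

end Vale.Agent.P032.Six
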