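import Vale.Agent.P032.S5.H225.Germ
import Vale.Agent.P032.S5.H585.Pinch
import Vale.Agent.P032.S5.H589.Harm2

/-!
# P032: a harmless point on the unit circle about a two-pair centre (row (L8))

`z` with `DPt T z a b c d`, `v` harmless with arc pair `A`, `|v - z| = 1`.

* `Irr.harm_no_abcd`: `T v` does not contain all of `a, b, c, d`.
* `Irr.harm_abc`: if `a, b, c ∈ T v` then `A = {a, c}` or `A = {b, c}`.
* `Irr.harm_row`: the row (L8) of the table: `T v = {a, b, c, d}` is impossible and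
  `T v = {a, b, c, e}` has `A = {a, c}` or `A = {b, c}`.
* `Irr.harm_ac`: if `a, c ∈ T v`: `A = {a, c}`, or `S(v)` flips from `b` to `d` at `z`.

No `Only`, no accumulation hypothesis and no tameness is used.
-/

open Set Filter Topology Metric

noncomputable section

namespace Vale.Agent.P032.Six

variable {k : ℕ} {U : Fin k → Set ℂ} {T : ℂ → Set (Fin k)}

/-- an exact two-coloured point of the circle about a harmless point, with colours of this point,
has the arc pair -/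
theorem Harm.pair_eq {v q : ℂ} {A : Set (Fin k)} {x y : Fin k} (hv : Harm T v A)
    (hq : dist q v = 1) (hT : T q = {x, y}) (hx : x ∈ T v) (hy : y ∈ T v) : A = {x, y} := by
  have h1 : A ⊆ T q := hv.h1 q hq (by
    rw [hT]
    rintro i (rfl | hi)
    · exact hx
    · rw [mem_singleton_iff] at hi
      subst hi
      exact hy)
  rw [hT] at h1
  refine Set.eq_of_subset_of_ncard_le h1 ?_ (Set.toFinite _)
  rw [hv.cardA]
  have h2 := Set.ncard_insert_le x ({y} : Set (Fin k))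
  rwa [Set.ncard_singleton] at h2

/-- the two half branches of `S(v)` at the two-pair centre `z`, as exact points -/
theorem Irr.germ_pts (h : Irr U T) {z v : ℂ} {a b c d : Fin k} (hz : DPt T z a b c d)
    (hvz : dist v z = 1) :
    ∃ x x' y y', ((x = a ∧ x' = b) ∨ (x = b ∧ x' = a)) ∧ ((y = c ∧ y' = d) ∨ (y = d ∧ y' = c)) ∧
      (x ∈ T v → y ∈ T v → ∃ q, dist q v = 1 ∧ T q = {x, y}) ∧
      (x' ∈ T v → y' ∈ T v → ∃ q, dist q v = 1 ∧ T q = {x', y'}) := by
  have hz1 : dist z v = 1 := by rw [dist_comm]; exact hvz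
  have key : ∀ x y : Fin k, ∀ τ : ℝ, (∀ᶠ t : ℝ in 𝓝[>] 0, T (hb v z τ t) ⊆ {x, y}) →
      x ∈ T v → y ∈ T v → ∃ q, dist q v = 1 ∧ T q = {x, y} := by
    intro x y τ h1 hx hy
    exact hb_exists hz1 (h.hb_exact hz1 h1 (h.sub _ hx) (h.sub _ hy))
  rcases h.germ_branch hz hz1 with h1 | h1 | h1 | h1
  · exact ⟨a, b, c, d, Or.inl ⟨rfl, rfl⟩, Or.inl ⟨rfl, rfl⟩, key _ _ _ h1.1, key _ _ _ h1.2⟩
  · exact ⟨a, b, d, c, Or.inl ⟨rfl, rfl⟩, Or.inr ⟨rfl, rfl⟩, key _ _ _ h1.1, key _ _ _ h1.2⟩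
  · exact ⟨b, a, c, d, Or.inr ⟨rfl, rfl⟩, Or.inl ⟨rfl, rfl⟩, key _ _ _ h1.1, key _ _ _ h1.2⟩
  · exact ⟨b, a, d, c, Or.inr ⟨rfl, rfl⟩, Or.inr ⟨rfl, rfl⟩, key _ _ _ h1.1, key _ _ _ h1.2⟩

/-- **(L8), three common colours**: the arc pair of `v` is a mixed pair with `c` -/
theorem Irr.harm_abc (h : Irr U T) {z v : ℂ} {a b c d : Fin k} {A : Set (Fin k)}
    (hz : DPt T z a b c d) (hvz : dist v z = 1) (hv : Harm T v A)
    (ha : a ∈ T v) (hb' : b ∈ T v) (hc : c ∈ T v) : A = {a, c} ∨ A = {b, c} := by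
  obtain ⟨x, x', y, y', hx, hy, h1, h2⟩ := h.germ_pts hz hvz
  have hxv : x ∈ T v := by
    rcases hx with ⟨rfl, -⟩ | ⟨rfl, -⟩
    · exact ha
    · exact hb'
  have hxv' : x' ∈ T v := by
    rcases hx with ⟨-, rfl⟩ | ⟨-, rfl⟩
    · exact hb'
    · exact ha
  rcases hy with ⟨rfl, rfl⟩ | ⟨rfl, rfl⟩
  · obtain ⟨q, hq, hT⟩ := h1 hxv hc
    have h3 := hv.pair_eq hq hT hxv hc
    rcases hx with ⟨rfl, -⟩ | ⟨rfl, -⟩
    · exact Or.inl h3
    · exact Or.inr h3
  · obtain ⟨q, hq, hT⟩ := h2 hxv' hc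
    have h3 := hv.pair_eq hq hT hxv' hc
    rcases hx with ⟨-, rfl⟩ | ⟨-, rfl⟩
    · exact Or.inr h3
    · exact Or.inl h3

/-- **(L8), four common colours**: impossible -/
theorem Irr.harm_no_abcd (h : Irr U T) {z v : ℂ} {a b c d : Fin k} {A : Set (Fin k)}
    (hz : DPt T z a b c d) (hvz : dist v z = 1) (hv : Harm T v A)
    (ha : a ∈ T v) (hb' : b ∈ T v) (hc : c ∈ T v) (hd : d ∈ T v) : False := by
  have hcA : c ∈ A := by
    rcases h.harm_abc hz hvz hv ha hb' hc with h1 | h1 <;> rw [h1] <;> simp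
  rcases h.harm_abc hz.swap34 hvz hv ha hb' hd with h1 | h1 <;> rw [h1] at hcA <;>
    rcases hcA with h2 | h2
  · exact hz.ac h2.symm
  · exact hz.cd h2
  · exact hz.bc h2.symm
  · exact hz.cd h2

/-- **(L8)** -/
theorem Irr.harm_row (h : Irr U T) {z v : ℂ} {a b c d : Fin k} {A : Set (Fin k)}
    (hz : DPt T z a b c d) (hvz : dist v z = 1) (hv : Harm T v A) :
    T v ≠ {a, b, c, d} ∧ (∀ e, T v = {a, b, c, e} → A = {a, c} ∨ A = {b, c}) ∧
      (∀ e, T v = {a, b, d, e} → A = {a, d} ∨ A = {b, d}) ∧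
      (∀ e, T v = {a, c, d, e} → A = {a, c} ∨ A = {a, d}) ∧
      ∀ e, T v = {b, c, d, e} → A = {b, c} ∨ A = {b, d} := by
  refine ⟨fun hT => h.harm_no_abcd hz hvz hv (by rw [hT]; simp) (by rw [hT]; simp)
    (by rw [hT]; simp) (by rw [hT]; simp), fun e hT => ?_, fun e hT => ?_, fun e hT => ?_,
    fun e hT => ?_⟩
  · exact h.harm_abc hz hvz hv (by rw [hT]; simp) (by rw [hT]; simp) (by rw [hT]; simp)
  · exact h.harm_abc hz.swap34 hvz hv (by rw [hT]; simp) (by rw [hT]; simp) (by rw [hT]; simp)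
  · have h1 := h.harm_abc hz.swap hvz hv (by rw [hT]; simp) (by rw [hT]; simp) (by rw [hT]; simp)
    simpa only [pair_comm c a, pair_comm d a] using h1
  · have h1 := h.harm_abc hz.swap.swap34 hvz hv (by rw [hT]; simp) (by rw [hT]; simp)
      (by rw [hT]; simp)
    simpa only [pair_comm c b, pair_comm d b] using h1

/-- three common colours and limits of exact `ab`-points of `S(z)` at `v`, for `Only`-centres:
`A` is a mixed pair, in particular no exact `ab`-point near `v` on the circle is in it -/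
theorem Irr.harm_abc_ne (h : Irr U T) {z v : ℂ} {a b c d : Fin k} {A : Set (Fin k)}
    (hz : DPt T z a b c d) (hvz : dist v z = 1) (hv : Harm T v A)
    (ha : a ∈ T v) (hb' : b ∈ T v) (hc : c ∈ T v) : A ≠ {a, b} ∧ d ∉ T v := by
  refine ⟨fun hA => ?_, fun hd => h.harm_no_abcd hz hvz hv ha hb' hc hd⟩
  have hcA : c ∈ A := by
    rcases h.harm_abc hz hvz hv ha hb' hc with h1 | h1 <;> rw [h1] <;> simp
  rw [hA] at hcA
  rcases hcA with h2 | h2
  · exact hz.ac h2.symm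
  · exact hz.bc h2.symm

/-- two crossed common colours `a, c`: `A = {a, c}`, or `S(v)` has `b` everywhere on one half at `z`
and `d` everywhere on the other half -/
theorem Irr.harm_ac (h : Irr U T) {z v : ℂ} {a b c d : Fin k} {A : Set (Fin k)}
    (hz : DPt T z a b c d) (hvz : dist v z = 1) (hv : Harm T v A)
    (ha : a ∈ T v) (hc : c ∈ T v) : A = {a, c} ∨
      ∃ τ : ℝ, (τ = 1 ∨ τ = -1) ∧
        (∀ᶠ t : ℝ in 𝓝[>] 0, T (hb v z τ t) ⊆ {a, d} ∧ d ∈ T (hb v z τ t)) ∧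
        ∀ᶠ t : ℝ in 𝓝[>] 0, T (hb v z (-τ) t) ⊆ {c, b} ∧ b ∈ T (hb v z (-τ) t) := by
  have hz1 : dist z v = 1 := by rw [dist_comm]; exact hvz
  obtain ⟨τ, hτ, h1 | h1⟩ := h.germ_cross (z := v) (v := z) (x := a) (x' := c) (e := d) (f := b)
    ha hc hz hz1
  · left
    obtain ⟨q, hq, hT⟩ := hb_exists hz1 h1.1
    exact hv.pair_eq hq hT ha hc
  · exact Or.inr ⟨τ, hτ, h1.1, h1.2⟩

end Vale.Agent.P032.Six
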